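import Vale.Agent.P134.Many

/-!
# P134: solutions whose normal direction is constant along the lines of one direction
-/

open InnerProductSpace
open scoped RealInnerProductSpace Laplacian

namespace Vale.Agent.Results.P134.VerticalTranslates

/-- `u` is one-dimensional. -/
def OneDimensional {n : ℕ} (u : EuclideanSpace ℝ (Fin n) → ℝ) : Prop :=
  ∃ (e : EuclideanSpace ℝ (Fin n)) (g : ℝ → ℝ), ‖e‖ = 1 ∧ ∀ x, u x = g ⟪e, x⟫

/-- The direction of the gradient of `u` does not change along the lines parallel to `a`. -/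
def ConstantNormal {n : ℕ} (u : EuclideanSpace ℝ (Fin n) → ℝ) (a : EuclideanSpace ℝ (Fin n)) :
    Prop :=
  ∀ (x : EuclideanSpace ℝ (Fin n)) (s : ℝ), ∃ c : ℝ, fderiv ℝ u (x + s • a) = c • fderiv ℝ u x

/-- The statement of De Giorgi's conjecture in dimension `n`. -/
def DeGiorgi (n : ℕ) : Prop :=
  ∀ u : EuclideanSpace ℝ (Fin n) → ℝ, ContDiff ℝ 2 u → (∀ x, |u x| ≤ 1) →
    (∀ x, Δ u x = u x ^ 3 - u x) →
    (∃ e : EuclideanSpace ℝ (Fin n), ∀ x, 0 < fderiv ℝ u x e) → OneDimensional u

/-- **Theorem.**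

(1) Let `u` be a bounded solution of `Δ u = f u` of class `C²` on the whole space, with no
critical point, and let `u` have constant normal along `a`. Then `u` is constant along the lines
parallel to `a`, or `u` is one-dimensional.

(2) Let `u` be a bounded solution of `Δ u = f u` of class `C²` on the whole space, whose
derivative in the direction `e` is positive. Suppose that `u` has constant normal along `e`, or
that the profiles `t ↦ u (x + t e)` are translates of one another, or that the derivative of `u`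
in the direction `e` is a differentiable function of `u`. Then `u` is one-dimensional.

(3) Suppose that the conjecture holds in dimension `m`. Then it holds in dimension `m + k` for all
solutions which have constant normal along `k` linearly independent vectors. -/
theorem result :
    (∀ (n : ℕ) (u : EuclideanSpace ℝ (Fin n) → ℝ) (f : ℝ → ℝ), ContDiff ℝ 2 u →
      (∃ C : ℝ, ∀ x, |u x| ≤ C) → (∀ x, Δ u x = f (u x)) →
      (∀ x, fderiv ℝ u x ≠ 0) → ∀ a : EuclideanSpace ℝ (Fin n), ConstantNormal u a →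
      (∀ (x : EuclideanSpace ℝ (Fin n)) (s : ℝ), u (x + s • a) = u x) ∨ OneDimensional u) ∧
    (∀ (n : ℕ) (u : EuclideanSpace ℝ (Fin n) → ℝ) (f : ℝ → ℝ), ContDiff ℝ 2 u →
      (∃ C : ℝ, ∀ x, |u x| ≤ C) → (∀ x, Δ u x = f (u x)) →
      ∀ e : EuclideanSpace ℝ (Fin n), (∀ x, 0 < fderiv ℝ u x e) →
      (ConstantNormal u e ∨
        (∀ x y : EuclideanSpace ℝ (Fin n), ∃ c : ℝ, ∀ t : ℝ,
          u (y + t • e) = u (x + (t + c) • e)) ∨
        ∃ G : ℝ → ℝ, (∀ x, DifferentiableAt ℝ G (u x)) ∧ ∀ x, fderiv ℝ u x e = G (u x)) →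
      OneDimensional u) ∧
    ∀ m k : ℕ, DeGiorgi m → ∀ u : EuclideanSpace ℝ (Fin (m + k)) → ℝ, ContDiff ℝ 2 u →
      (∀ x, |u x| ≤ 1) → (∀ x, Δ u x = u x ^ 3 - u x) →
      (∃ e : EuclideanSpace ℝ (Fin (m + k)), ∀ x, 0 < fderiv ℝ u x e) →
      (∃ a : Fin k → EuclideanSpace ℝ (Fin (m + k)),
        LinearIndependent ℝ a ∧ ∀ i, ConstantNormal u (a i)) →
      OneDimensional u := by
  have part1 : ∀ (n : ℕ) (u : EuclideanSpace ℝ (Fin n) → ℝ) (f : ℝ → ℝ), ContDiff ℝ 2 u →
      (∃ C : ℝ, ∀ x, |u x| ≤ C) → (∀ x, Δ u x = f (u x)) →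
      (∀ x, fderiv ℝ u x ≠ 0) → ∀ a : EuclideanSpace ℝ (Fin n), ConstantNormal u a →
      (∀ (x : EuclideanSpace ℝ (Fin n)) (s : ℝ), u (x + s • a) = u x) ∨ OneDimensional u := by
    intro n u f hu hb hf hg a h
    obtain ⟨C, hC⟩ := hb
    rcases Vale.Agent.P134.dichotomy hu hg h hf hC with h1 | h1
    · left
      intro x s
      have hd : ∀ t : ℝ, HasDerivAt (fun t : ℝ => u (x + t • a)) 0 t := by
        intro t
        have h2 := Vale.Agent.P134.prof (e := a) hu x t
        rwa [h1] at h2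
      have h3 := is_const_of_deriv_eq_zero (fun t => (hd t).differentiableAt)
        (fun t => (hd t).deriv) s 0
      simpa using h3
    · exact Or.inr h1
  refine ⟨part1, ?_, ?_⟩
  · intro n u f hu hb hf e he h
    obtain ⟨C, hC⟩ := hb
    rcases h with h | h | ⟨G, hG, h⟩
    · exact Vale.Agent.P134.one_dim hu he (Vale.Agent.P134.inv_of_parallel he h) hf hC
    · exact Vale.Agent.P134.one_dim hu he (Vale.Agent.P134.inv_of_translates hu he h) hf hC
    · exact Vale.Agent.P134.one_dim hu he (Vale.Agent.P134.inv_of_function hu he hG h) hf hC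
  · intro m k hm u hu hb hf he ha
    exact Vale.Agent.P134.many (f := fun s => s ^ 3 - s) m
      (fun v hv hvb hvf hve => hm v hv hvb hvf hve) k u hu hb hf he ha

end Vale.Agent.Results.P134.VerticalTranslates
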